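import Vale.Agent.P150.Link
import Vale.Agent.P150.Dis

namespace Vale.Agent.Results.P150.Half

open Vale.Agent.P150 Filter Topology

theorem result (β : ℝ) (h0 : 0 ≤ β) (h1 : β < 1 / 2) : ∃ c C : ℝ, 0 < c ∧
    Tendsto (fun n : ℕ => gI (Pr n) {g | ¬ (c ≤ gap β g ∧ gap β g ≤ 1 ∧
      (∀ t, C * Real.log n ≤ t → ∀ x, tvd β g t x ≤ 1 / 4) ∧ tmix β g ≤ C * Real.log n)})
      atTop (𝓝 0) := by
  have hl0 : 0 ≤ (1 + 2 * β) / 2 := by linarith
  have hl1 : (1 + 2 * β) / 2 ≤ 1 := by linarith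
  have hd : (1 - 2 * β) / 404 ≤ 1 / 4 := by linarith
  have hγ : 0 < 1 - (1 + 2 * β) / 2 - 101 * ((1 - 2 * β) / 404) := by linarith
  set C := Real.exp (2 * (8 * (1 / (1 - (1 + 2 * β) / 2 - 101 * ((1 - 2 * β) / 404))) + 2))
  have hC : 1 ≤ C := Real.one_le_exp (by positivity)
  refine ⟨_, 8 * C, hγ, ?_⟩
  refine tendsto_of_tendsto_of_tendsto_of_le_of_le' tendsto_const_nhds
    (good_whp (lam := (1 + 2 * β) / 2) (δ := (1 - 2 * β) / 404) h0 (by linarith) hl1 (by linarith))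
    (Eventually.of_forall fun _ => zero_le) ?_
  filter_upwards [eventually_ge_atTop 2] with n hn
  refine MeasureTheory.measure_mono fun g hg hJ => hg ?_
  have hp := pi_good hJ hl1 hd 0
  have ha := at_good hJ hl0 hl1 hd hγ 0
  rw [← wt_eq] at hp ha
  have h3 := gap_ge (by omega) hp
  have h4 : ∀ t, 8 * C * Real.log n ≤ t → ∀ x, tvd β g t x ≤ 1 / 4 :=
    fun t ht x => tvd_le hn hJ hl1 hC ha ht x
  refine ⟨h3.1, h3.2, h4, csInf_le ⟨0, fun t ht => ht.1⟩ ⟨?_, h4 _ le_rfl⟩⟩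
  exact mul_nonneg (by linarith) (Real.log_natCast_nonneg n)

end Vale.Agent.Results.P150.Half
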